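import Vale.Agent.Lib.P064D.Pow
import Vale.Agent.Lib.P064L.LogEdges

/-!
The threshold of `Pow.lean` with `log (e(H) + 3)` in place of `log n`.
-/

open Finset

namespace Vale.Agent.Lib.P064D

open Vale.Agent.Lib.P064 Vale.Agent.Lib.P064E Vale.Agent.Lib.P064U Vale.Agent.Lib.P064N
  Vale.Agent.Lib.P064Q Vale.Agent.Lib.P064F Vale.Agent.Lib.P064L
open scoped Classical

/-- For `H` of maximum degree at most `Δ`, with `a = log (1 / p_E) / log n`:
`p_c ≤ C Δ^min(1,a) p_E log (e(H) + 3)`. -/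
theorem deg_pow_edges :
    ∃ C : ℝ, 0 < C ∧ ∀ (n : ℕ) (V : Type) [Fintype V] (H : SimpleGraph V), 2 ≤ n →
      Fintype.card V ≤ n → H ≠ ⊥ → ∀ Δ : ℕ, (∀ x, (H.neighborSet x).ncard ≤ Δ) →
      pc n H ≤ C * (Δ : ℝ) ^ (min 1 (Real.log (1 / pE n H) / Real.log n)) * pE n H *
        Real.log ((H.edgeSet.ncard : ℝ) + 3) := by
  refine ⟨3072 * Real.exp 3 + 16, by positivity, ?_⟩
  intro n V _ H hn hV hH Δ hΔ
  have hexa : ∃ a b, H.Adj a b := by
    by_contra hcon
    push Not at hcon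
    apply hH
    ext a b
    simp [hcon a b]
  have hncard : ∀ x, (H.neighborSet x).ncard ≤ n := by
    intro x
    have h1 : (H.neighborSet x).ncard ≤ Nat.card V := Set.ncard_le_card _
    rw [Nat.card_eq_fintype_card] at h1
    exact h1.trans hV
  have hΔ1 : 1 ≤ Δ := by
    obtain ⟨a, b, hab⟩ := hexa
    have h0 : (H.neighborSet a).Nonempty := ⟨b, hab⟩
    have h1 : 0 < (H.neighborSet a).ncard := (Set.ncard_pos (Set.toFinite _)).2 h0
    exact h1.trans_le (hΔ a)
  have hn1 : 1 ≤ n := by omega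
  set Δ' := min Δ n with hΔ'
  have hΔ'1 : 1 ≤ Δ' := le_min hΔ1 hn1
  have hdeg' : ∀ x, (H.neighborSet x).ncard ≤ Δ' := fun x => le_min (hΔ x) (hncard x)
  have hΔ0 : (1 : ℝ) ≤ Δ' := by exact_mod_cast hΔ'1
  have hΔ'n : (Δ' : ℝ) ≤ n := by exact_mod_cast min_le_right Δ n
  have hΔ'Δ : (Δ' : ℝ) ≤ Δ := by exact_mod_cast min_le_left Δ n
  have hn2 : (2 : ℝ) ≤ n := by exact_mod_cast hn
  have hL : Real.log 2 ≤ Real.log n := Real.log_le_log (by norm_num) hn2
  have hlog2 : (0.6931471803 : ℝ) < Real.log 2 := Real.log_two_gt_d9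
  have hL0 : 0 < Real.log n := by linarith
  have hP0 : 0 < pE n H := pE_pos hn hV hH
  have hP1 : pE n H ≤ 1 := pE_le_one hV
  set P := pE n H with hP
  set L := Real.log n with hLdef
  set a := Real.log (1 / P) / L with ha
  have ha0 : 0 ≤ a := by
    have : 0 ≤ Real.log (1 / P) := Real.log_nonneg (by
      rw [le_div_iff₀ hP0]
      linarith)
    exact div_nonneg this hL0.le
  set b := min 1 a with hb
  have hb0 : 0 ≤ b := le_min (by norm_num) ha0
  have hΔreal : (1 : ℝ) ≤ Δ := hΔ0.trans hΔ'Δ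
  have hKb : (1 : ℝ) ≤ (Δ : ℝ) ^ b := Real.one_le_rpow hΔreal hb0
  set Kb := (Δ : ℝ) ^ b with hKbdef
  have hexp3 : Real.exp 3 = Real.exp 2 * Real.exp 1 := by
    rw [← Real.exp_add]
    norm_num
  have he30 : 0 < Real.exp 3 := Real.exp_pos _
  have hE1 := one_le_log_edges H
  set E := Real.log ((H.edgeSet.ncard : ℝ) + 3) with hE
  by_cases hq3 : 4 * P ≤ 1
  · have hG : GoodDensity n (4 * P) H := good_of_pE hn hV hH le_rfl
    have hq0 : 0 < 4 * P := by positivity
    set K := (Δ' : ℝ) ^ (min 1 (Real.log (1 / (4 * P)) / L)) with hK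
    have hb'0 : 0 ≤ min 1 (Real.log (1 / (4 * P)) / L) := by
      refine le_min (by norm_num) (div_nonneg (Real.log_nonneg ?_) hL0.le)
      rw [le_div_iff₀ hq0]
      linarith
    have hK1 : 1 ≤ K := Real.one_le_rpow hΔ0 hb'0
    have hKKb : K ≤ Kb := by
      have hmono : min 1 (Real.log (1 / (4 * P)) / L) ≤ b := by
        apply min_le_min le_rfl
        apply div_le_div_of_nonneg_right _ hL0.le
        apply Real.log_le_log (by positivity)
        apply one_div_le_one_div_of_le hP0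
        linarith
      calc K ≤ (Δ : ℝ) ^ (min 1 (Real.log (1 / (4 * P)) / L)) :=
            Real.rpow_le_rpow (by linarith) hΔ'Δ hb'0
        _ ≤ Kb := Real.rpow_le_rpow_of_exponent_le hΔreal hmono
    have hEmb := embBound_K hΔ'1 hdeg' hK1 hV hG hq0 hq3
      (fun w e hwe => num_alt hΔ0 hΔ'n hq0 w e hwe)
    have hΘ : Real.exp 2 * (4 * Real.exp 1 * K) * (4 * P) = 16 * Real.exp 3 * K * P := by
      rw [hexp3]
      ring
    rw [hΘ] at hEmb
    have hK0 : 0 < K := by linarith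
    have hΘ0 : 0 < 16 * Real.exp 3 * K * P := by positivity
    have hC := pc_le_of_embBound_edges hn hV hH hΘ0 hEmb
    have hΘle : 16 * Real.exp 3 * K * P ≤ 16 * Real.exp 3 * Kb * P := by
      gcongr
    rw [← hE] at hC
    refine hC.trans ?_
    have hE0 : 0 ≤ E := by linarith
    have h8 : 192 * E * (16 * Real.exp 3 * K * P) ≤ 192 * E * (16 * Real.exp 3 * Kb * P) :=
      mul_le_mul_of_nonneg_left hΘle (by positivity)
    refine h8.trans ?_
    have h6 : 0 ≤ Kb * P * E := by positivity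
    nlinarith
  · have hP4 : 1 < 4 * P := not_le.1 hq3
    have h2 : pc n H ≤ 1 := pc_le_one hV
    have hDP : 1 / 4 ≤ Kb * P := by nlinarith
    have hC : (16 : ℝ) ≤ 3072 * Real.exp 3 + 16 := by linarith
    have h9 : (1 / 4 : ℝ) * 1 ≤ Kb * P * E :=
      mul_le_mul hDP hE1 (by norm_num) (by positivity)
    have h10 : (16 : ℝ) * ((1 / 4 : ℝ) * 1) ≤ (3072 * Real.exp 3 + 16) * (Kb * P * E) :=
      mul_le_mul hC h9 (by norm_num) (by linarith)
    have h11 : (3072 * Real.exp 3 + 16) * Kb * P * E = (3072 * Real.exp 3 + 16) * (Kb * P * E) := by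
      ring
    rw [h11]
    refine h2.trans (le_trans ?_ h10)
    norm_num

end Vale.Agent.Lib.P064D
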