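import Vale.Agent.Lib.P064F.Root
import Vale.Agent.Lib.P064U.WComp
import Vale.Agent.Lib.P064N.Final
import Vale.Agent.Lib.P064Q.Chord1
import Vale.Agent.Lib.P064Q.GroupCopies

/-!
Graphs of maximum degree `Δ`: `tilde p_E ≤ C Δ p_E` and `p_c ≤ C Δ p_E log n`.
A maximal family of pairwise disjoint copies has at most `e n^v q^e` members, every copy meets it, and at most
`Δ^(v-1)` copies send a given vertex of a connected graph to a given vertex.
-/

open Finset

namespace Vale.Agent.Lib.P064D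

open Vale.Agent.Lib.P064 Vale.Agent.Lib.P064E Vale.Agent.Lib.P064U Vale.Agent.Lib.P064N
  Vale.Agent.Lib.P064Q Vale.Agent.Lib.P064F
open scoped Classical

variable {V : Type} [Fintype V]

/-- The copies with a given image of the root of a rooted spanning tree. -/
theorem fiber_card_le {H : SimpleGraph V} {Δ : ℕ} (hΔ1 : 1 ≤ Δ)
    (hΔ : ∀ x, (H.neighborSet x).ncard ≤ Δ)
    {γ : Type} [Fintype γ] {G : SimpleGraph γ} {z : γ} {π : γ → γ} {r : γ → ℕ}
    (hT : RootedT G z π r) (x : V) :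
    ((emb G H).filter (fun φ => φ z = x)).card ≤ Δ ^ (Fintype.card γ - 1) := by
  have henc : ∀ u : V, ∃ f : V → Fin Δ, ∀ a b, H.Adj u a → H.Adj u b → f a = f b → a = b := by
    intro u
    have hcard : Fintype.card (H.neighborSet u) ≤ Δ := by
      have := hΔ u
      rwa [Set.ncard_eq_toFinset_card', Set.toFinset_card] at this
    obtain ⟨e⟩ : Nonempty ((H.neighborSet u) ↪ Fin Δ) :=
      Function.Embedding.nonempty_of_card_le (by simpa using hcard)
    refine ⟨fun v => if h : H.Adj u v then e ⟨v, h⟩ else ⟨0, hΔ1⟩, ?_⟩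
    intro a b ha hb hab
    simp only [dif_pos ha, dif_pos hb] at hab
    have := e.injective hab
    exact congrArg Subtype.val this
  choose enc henc using henc
  have hcardS : Fintype.card {y : γ // ¬ y = z} = Fintype.card γ - 1 := by
    rw [Fintype.card_subtype_compl, Fintype.card_subtype_eq]
  have hle : ((emb G H).filter (fun φ => φ z = x)).card ≤
      (univ : Finset ({y : γ // ¬ y = z} → Fin Δ)).card := by
    refine Finset.card_le_card_of_injOn (fun φ y => enc (φ (π y.1)) (φ y.1)) (fun _ _ => mem_univ _) ?_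
    intro φ hφ φ' hφ' hEq
    have hφ1 := (Finset.mem_filter.1 (Finset.mem_coe.1 hφ))
    have hφ2 := (Finset.mem_filter.1 (Finset.mem_coe.1 hφ'))
    have hhom := (mem_emb.1 hφ1.1).2
    have hhom' := (mem_emb.1 hφ2.1).2
    have key : ∀ k : ℕ, ∀ y, r y = k → φ y = φ' y := by
      intro k
      induction k using Nat.strong_induction_on with
      | _ k ih =>
        intro y hy
        by_cases hyz : y = z
        · rw [hyz, hφ1.2, hφ2.2]
        · obtain ⟨hlt, hadj⟩ := hT.hpar y hyz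
          have hp : φ (π y) = φ' (π y) := ih (r (π y)) (by omega) _ rfl
          have h1 := hhom _ _ hadj
          have h2 := hhom' _ _ hadj
          rw [← hp] at h2
          have h3 := congrFun hEq ⟨y, hyz⟩
          simp only at h3
          rw [← hp] at h3
          exact henc _ _ _ h1 h2 h3
    funext y
    exact key _ y rfl
  refine hle.trans ?_
  rw [Finset.card_univ, Fintype.card_fun, Fintype.card_fin, hcardS]

/-- The edge count. -/
lemma ncard_eq_eIn {γ : Type} [Fintype γ] (G : SimpleGraph γ) :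
    G.edgeSet.ncard = (eIn G univ).card := by
  have h : G.edgeSet = ((eIn G univ : Finset (Sym2 γ)) : Set (Sym2 γ)) := by
    ext e
    simp [eIn]
  rw [h, Set.ncard_coe_finset]

/-- The bound for connected graphs. -/
theorem conn_bound {H : SimpleGraph V} {Δ : ℕ} (hΔ1 : 1 ≤ Δ)
    (hΔ : ∀ x, (H.neighborSet x).ncard ≤ Δ) {n : ℕ} {q : ℝ}
    (hG : GoodDensity n q H) (hq0 : 0 < q) (hq1 : q ≤ 1)
    {γ : Type} [Fintype γ] (G : SimpleGraph γ) (hne : Nonempty γ) (hiso : ∀ x, ∃ y, G.Adj x y)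
    (hconn : ∀ D : Finset γ, D.Nonempty → D ≠ univ → ∃ u ∈ D, ∃ w, w ∉ D ∧ G.Adj u w) :
    ((emb G H).card : ℝ) ≤
      (4 * Real.exp 1 * Δ * q) ^ (eIn G univ).card * (n : ℝ) ^ Fintype.card γ := by
  obtain ⟨a₀⟩ := hne
  set e := (eIn G univ).card with he
  set v := Fintype.card γ with hv
  have hΔ0 : (1 : ℝ) ≤ Δ := by exact_mod_cast hΔ1
  -- a maximal family
  set 𝓕 : Finset (Finset (γ → V)) := (emb G H).powerset.filter
    (fun M => ∀ φ ∈ M, ∀ ψ ∈ M, φ ≠ ψ → ∀ a b, φ a ≠ ψ b) with h𝓕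
  have hF0 : (∅ : Finset (γ → V)) ∈ 𝓕 := by
    simp [h𝓕]
  obtain ⟨M, hM, hmax⟩ := Finset.exists_max_image 𝓕 Finset.card ⟨∅, hF0⟩
  have hMsub : M ⊆ emb G H := Finset.mem_powerset.1 (Finset.mem_filter.1 hM).1
  have hMdis := (Finset.mem_filter.1 hM).2
  have hmeet : ∀ φ ∈ emb G H, ∃ ψ ∈ M, ∃ a b, φ a = ψ b := by
    intro φ hφ
    by_contra hcon
    push Not at hcon
    have hφM : φ ∉ M := fun h => hcon φ h a₀ a₀ rfl
    have hins : insert φ M ∈ 𝓕 := by
      refine Finset.mem_filter.2 ⟨Finset.mem_powerset.2 (Finset.insert_subset hφ hMsub), ?_⟩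
      intro f hf g hg hfg a b
      rcases Finset.mem_insert.1 hf with rfl | hf'
      · rcases Finset.mem_insert.1 hg with rfl | hg'
        · exact absurd rfl hfg
        · exact hcon g hg' a b
      · rcases Finset.mem_insert.1 hg with rfl | hg'
        · exact (hcon f hf' b a).symm
        · exact hMdis f hf' g hg' hfg a b
    have h1 := hmax _ hins
    rw [Finset.card_insert_of_notMem hφM] at h1
    omega
  -- the covering
  have hcover : (emb G H).card ≤ M.card * (v * v * Δ ^ (v - 1)) := by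
    have hsub : emb G H ⊆ (M ×ˢ ((univ : Finset γ) ×ˢ (univ : Finset γ))).biUnion
        (fun t => (emb G H).filter (fun φ => φ t.2.1 = t.1 t.2.2)) := by
      intro φ hφ
      obtain ⟨ψ, hψ, a, b, hab⟩ := hmeet φ hφ
      refine Finset.mem_biUnion.2 ⟨(ψ, a, b), by simp [hψ], Finset.mem_filter.2 ⟨hφ, hab⟩⟩
    have h1 := Finset.card_le_card hsub
    have h2 := Finset.card_biUnion_le_card_mul (M ×ˢ ((univ : Finset γ) ×ˢ (univ : Finset γ)))
      (fun t => (emb G H).filter (fun φ => φ t.2.1 = t.1 t.2.2)) (Δ ^ (v - 1)) ?_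
    · rw [Finset.card_product, Finset.card_product, Finset.card_univ] at h2
      calc (emb G H).card ≤ M.card * (v * v) * Δ ^ (v - 1) := h1.trans h2
        _ = M.card * (v * v * Δ ^ (v - 1)) := by ring
    · rintro ⟨ψ, a, b⟩ -
      obtain ⟨π, r, hT⟩ := exists_rooted hconn a
      exact fiber_card_le hΔ1 hΔ hT _
  have hb0 : 0 ≤ (4 * Real.exp 1 * Δ * q) ^ e * (n : ℝ) ^ v := by positivity
  rcases M.eq_empty_or_nonempty with hMe | hMne
  · rw [hMe] at hcover
    have h0 : (emb G H).card = 0 := by simpa using hcover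
    rw [h0, Nat.cast_zero]
    exact hb0
  -- the rarity
  have hh : 1 ≤ M.card := Finset.card_pos.2 hMne
  obtain ⟨y₀, hy₀⟩ := hiso a₀
  have hW : G.edgeSet.Nonempty := ⟨s(a₀, y₀), hy₀⟩
  have hrare := copies_group_bound (n := n) hG hq0 hq1 G hW (⊥ : Subgroup (Equiv.Perm γ))
    (by
      intro σ hσ a b hab
      rw [Subgroup.mem_bot] at hσ
      rw [hσ]
      exact hab)
    hh (fun i => (M.equivFin.symm i).1)
    (fun i => (mem_emb.1 (hMsub (M.equivFin.symm i).2)).1)
    (fun i a b hab => (mem_emb.1 (hMsub (M.equivFin.symm i).2)).2 a b hab)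
    (by
      intro i j hij a b
      refine hMdis _ (M.equivFin.symm i).2 _ (M.equivFin.symm j).2 ?_ a b
      intro h
      exact hij (M.equivFin.symm.injective (Subtype.ext h)))
  rw [ncard_eq_eIn, ← he, ← hv] at hrare
  have hcardbot : Nat.card (⊥ : Subgroup (Equiv.Perm γ)) = 1 := Subgroup.card_bot
  rw [hcardbot, Nat.cast_one, mul_one] at hrare
  -- the arithmetic
  obtain ⟨π, r, hT⟩ := exists_rooted hconn a₀
  have hve : v ≤ e + 1 := v_le_e_add_one hT
  have he1 : 1 ≤ e := by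
    have : s(a₀, y₀) ∈ eIn G univ := by
      simp [eIn, hy₀]
    exact Finset.card_pos.2 ⟨_, this⟩
  have hcov : ((emb G H).card : ℝ) ≤ (M.card : ℝ) * (v * v * (Δ : ℝ) ^ (v - 1)) := by
    exact_mod_cast hcover
  have hE1 : 1 ≤ Real.exp 1 := Real.one_le_exp (by norm_num)
  have hv1 : ((v : ℝ)) ≤ 2 ^ e := by
    have h3 : e + 1 ≤ 2 ^ e := Nat.lt_two_pow_self
    have h4 : v ≤ 2 ^ e := hve.trans h3
    exact_mod_cast h4
  have hvv : (v : ℝ) * v ≤ 4 ^ e := by
    have h5 : (4 : ℝ) ^ e = 2 ^ e * 2 ^ e := by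
      rw [← mul_pow]
      norm_num
    rw [h5]
    have hv0 : (0 : ℝ) ≤ v := Nat.cast_nonneg _
    exact mul_le_mul hv1 hv1 hv0 (by positivity)
  have hΔe : (Δ : ℝ) ^ (v - 1) ≤ (Δ : ℝ) ^ e := pow_le_pow_right₀ hΔ0 (by omega)
  have hEe : Real.exp 1 ≤ Real.exp 1 ^ e := le_self_pow₀ hE1 (by omega)
  have hn0 : (0 : ℝ) ≤ (n : ℝ) ^ v := by positivity
  have hqe : (0 : ℝ) ≤ q ^ e := by positivity
  have hmid : 0 ≤ (v : ℝ) * v * (Δ : ℝ) ^ (v - 1) := by positivity
  calc ((emb G H).card : ℝ) ≤ (M.card : ℝ) * (v * v * (Δ : ℝ) ^ (v - 1)) := hcov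
    _ ≤ (Real.exp 1 * ((n : ℝ) ^ v * q ^ e)) * (v * v * (Δ : ℝ) ^ (v - 1)) :=
        mul_le_mul_of_nonneg_right hrare hmid
    _ = (Real.exp 1 * (v * v * (Δ : ℝ) ^ (v - 1))) * (q ^ e * (n : ℝ) ^ v) := by ring
    _ ≤ (Real.exp 1 ^ e * (4 ^ e * (Δ : ℝ) ^ e)) * (q ^ e * (n : ℝ) ^ v) := by
        gcongr
    _ = (4 * Real.exp 1 * Δ * q) ^ e * (n : ℝ) ^ v := by
        rw [mul_pow, mul_pow, mul_pow]
        ring

/-- The bound for all graphs without isolated vertices. -/
theorem embBound_deg {H : SimpleGraph V} {Δ : ℕ} (hΔ1 : 1 ≤ Δ)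
    (hΔ : ∀ x, (H.neighborSet x).ncard ≤ Δ) {n : ℕ} {q : ℝ}
    (hG : GoodDensity n q H) (hq0 : 0 < q) (hq1 : q ≤ 1) :
    EmbBound n H (Real.exp 2 * (4 * Real.exp 1 * Δ) * q) := by
  intro β _ G hiso hvn
  have hBd : 0 ≤ 4 * Real.exp 1 * Δ * q := by positivity
  have hmain : ((emb G H).card : ℝ) ≤
      (4 * Real.exp 1 * Δ * q) ^ (eIn G univ).card * (n : ℝ) ^ Fintype.card β := by
    refine emb_components (H := H) (n := n) hBd ?_ β G hiso
    intro γ _ G' hne hiso' hconn
    exact conn_bound hΔ1 hΔ hG hq0 hq1 G' hne hiso' hconn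
  refine hmain.trans ?_
  set e := (eIn G univ).card with he
  set v := Fintype.card β with hv
  have hve : v ≤ 2 * e := (vertices_le_darts hiso).trans darts_card_le
  have hnd := pow_le_exp_descFactorial hvn
  set d : ℝ := (n.descFactorial v : ℝ) with hd
  have hd0 : 0 ≤ d := Nat.cast_nonneg _
  have hE1 : 1 ≤ Real.exp 1 := Real.one_le_exp (by norm_num)
  have hpow : Real.exp 1 ^ v ≤ Real.exp 2 ^ e := by
    have h1 : Real.exp 2 ^ e = Real.exp 1 ^ (2 * e) := by
      have h0 : Real.exp 2 = Real.exp 1 ^ 2 := by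
        rw [← Real.exp_nat_mul]
        norm_num
      rw [h0, ← pow_mul]
    rw [h1]
    exact pow_le_pow_right₀ hE1 hve
  have hb0 : 0 ≤ (4 * Real.exp 1 * Δ * q) ^ e := by positivity
  calc (4 * Real.exp 1 * Δ * q) ^ e * (n : ℝ) ^ v
      ≤ (4 * Real.exp 1 * Δ * q) ^ e * (Real.exp 1 ^ v * d) :=
        mul_le_mul_of_nonneg_left hnd hb0
    _ ≤ (4 * Real.exp 1 * Δ * q) ^ e * (Real.exp 2 ^ e * d) := by
        gcongr
    _ = (Real.exp 2 * (4 * Real.exp 1 * Δ) * q) ^ e * d := by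
        have : Real.exp 2 * (4 * Real.exp 1 * Δ) * q = (4 * Real.exp 1 * Δ * q) * Real.exp 2 := by ring
        rw [this, mul_pow]
        ring

/-- The thresholds: for `H` of maximum degree at most `Δ`, `tilde p_E ≤ C Δ p_E`, `p_c ≤ C Δ p_E log n`. -/
theorem deg_thresholds :
    ∃ C : ℝ, 0 < C ∧ ∀ (n : ℕ) (V : Type) [Fintype V] (H : SimpleGraph V), 2 ≤ n →
      Fintype.card V ≤ n → H ≠ ⊥ → ∀ Δ : ℕ, (∀ x, (H.neighborSet x).ncard ≤ Δ) →
      pTilde n H ≤ C * Δ * pE n H ∧ pc n H ≤ C * Δ * pE n H * Real.log n := by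
  refine ⟨8192 * Real.exp 3 + 16, by positivity, ?_⟩
  intro n V _ H hn hV hH Δ hΔ
  have hΔ1 : 1 ≤ Δ := by
    obtain ⟨a, b, hab⟩ : ∃ a b, H.Adj a b := by
      by_contra hcon
      push Not at hcon
      apply hH
      ext a b
      simp [hcon a b]
    have h0 : (H.neighborSet a).Nonempty := ⟨b, hab⟩
    have h1 : 0 < (H.neighborSet a).ncard := (Set.ncard_pos (Set.toFinite _)).2 h0
    exact h1.trans_le (hΔ a)
  have hΔ0 : (1 : ℝ) ≤ Δ := by exact_mod_cast hΔ1
  have hn2 : (2 : ℝ) ≤ n := by exact_mod_cast hn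
  have hL : Real.log 2 ≤ Real.log n := Real.log_le_log (by norm_num) hn2
  have hlog2 : (0.6931471803 : ℝ) < Real.log 2 := Real.log_two_gt_d9
  have hL0 : 0 < Real.log n := by linarith
  have hP0 : 0 < pE n H := pE_pos hn hV hH
  set P := pE n H with hP
  set L := Real.log n with hLdef
  have hexp3 : Real.exp 3 = Real.exp 2 * Real.exp 1 := by
    rw [← Real.exp_add]
    norm_num
  have he30 : 0 < Real.exp 3 := Real.exp_pos _
  by_cases hq3 : 4 * P ≤ 1
  · have hG : GoodDensity n (4 * P) H := good_of_pE hn hV hH le_rfl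
    have hq0 : 0 < 4 * P := by positivity
    have hEmb := embBound_deg hΔ1 hΔ hG hq0 hq3
    have hΘ : Real.exp 2 * (4 * Real.exp 1 * Δ) * (4 * P) = 16 * Real.exp 3 * Δ * P := by
      rw [hexp3]
      ring
    rw [hΘ] at hEmb
    have hΘ0 : 0 < 16 * Real.exp 3 * Δ * P := by positivity
    have hT := pTilde_le_of_embBound hV hΘ0 hEmb
    have hC := pc_le_of_embBound hn hV hH hΘ0 hEmb
    have hDP : 0 ≤ (Δ : ℝ) * P := by positivity
    have h5 : 0 ≤ Real.exp 3 * ((Δ : ℝ) * P) := by positivity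
    constructor
    · refine hT.trans ?_
      nlinarith
    · rw [← hLdef] at hC
      refine hC.trans ?_
      have h6 : 0 ≤ Real.exp 3 * ((Δ : ℝ) * P) * L := by positivity
      have h7 : 0 ≤ (Δ : ℝ) * P * L := by positivity
      nlinarith
  · have hP4 : 1 < 4 * P := not_le.1 hq3
    have h1 : pTilde n H ≤ 1 := pTilde_le_one hV
    have h2 : pc n H ≤ 1 := pc_le_one hV
    have hDP : 1 / 4 ≤ (Δ : ℝ) * P := by nlinarith
    have hC : (16 : ℝ) ≤ 8192 * Real.exp 3 + 16 := by linarith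
    have hprod : (1 : ℝ) ≤ (8192 * Real.exp 3 + 16) * Δ * P := by
      calc (1 : ℝ) ≤ 16 * (1 / 4) := by norm_num
        _ ≤ (8192 * Real.exp 3 + 16) * ((Δ : ℝ) * P) :=
            mul_le_mul hC hDP (by norm_num) (by linarith)
        _ = _ := by ring
    constructor
    · linarith
    · have h4 : (4 : ℝ) * (1 / 4) ≤ (8192 * Real.exp 3 + 16) * Δ * P * (1 / 4) := by
        nlinarith
      have h8 : 1 ≤ (8192 * Real.exp 3 + 16) * Δ * P * L := by
        have h9 : (1 / 4 : ℝ) * (0.6931471803 : ℝ) ≤ (Δ : ℝ) * P * L := by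
          have : (0.6931471803 : ℝ) ≤ L := by linarith
          exact mul_le_mul hDP this (by norm_num) (by positivity)
        have h10 : (16 : ℝ) * ((1 / 4 : ℝ) * (0.6931471803 : ℝ)) ≤
            (8192 * Real.exp 3 + 16) * ((Δ : ℝ) * P * L) :=
          mul_le_mul hC h9 (by norm_num) (by linarith)
        have h11 : (8192 * Real.exp 3 + 16) * Δ * P * L =
            (8192 * Real.exp 3 + 16) * ((Δ : ℝ) * P * L) := by ring
        rw [h11]
        refine le_trans ?_ h10
        norm_num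
      linarith

end Vale.Agent.Lib.P064D
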