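import Vale.Agent.Lib.P064D.Main

/-!
The bound `Δ^min(1,a)` with `a = log (1 / p_E) / log n`: for `a e ≥ v - 1` the packing count of `Main.lean`,
for `a e < v - 1` the plain count `n Δ^(v-1)` against `n^v q^e`, using `Δ ≤ n`.
-/

open Finset

namespace Vale.Agent.Lib.P064D

open Vale.Agent.Lib.P064 Vale.Agent.Lib.P064E Vale.Agent.Lib.P064U Vale.Agent.Lib.P064N
  Vale.Agent.Lib.P064Q Vale.Agent.Lib.P064F
open scoped Classical

variable {V : Type} [Fintype V]

/-- The numerical alternative. -/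
lemma num_alt {Δ n q : ℝ} (hΔ : 1 ≤ Δ) (hΔn : Δ ≤ n) (hq0 : 0 < q) (w e : ℕ) (hwe : w ≤ e) :
    Δ ^ w ≤ (Δ ^ (min 1 (Real.log (1 / q) / Real.log n))) ^ e ∨
    Δ ^ w ≤ (Δ ^ (min 1 (Real.log (1 / q) / Real.log n))) ^ e * n ^ w * q ^ e := by
  have hΔ0 : 0 < Δ := by linarith
  have hn0 : 0 < n := by linarith
  by_cases hn1 : n ≤ 1
  · have hΔ1 : Δ = 1 := by linarith
    left
    rw [hΔ1]
    simp
  push Not at hn1
  set A := Real.log Δ with hA
  set L := Real.log n with hL
  have hL0 : 0 < L := Real.log_pos hn1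
  have hA0 : 0 ≤ A := Real.log_nonneg hΔ
  have hAL : A ≤ L := Real.log_le_log hΔ0 hΔn
  set a := Real.log (1 / q) / L with ha
  set b := min 1 a with hb
  have hq : q = Real.exp (-(a * L)) := by
    have h1 : a * L = Real.log (1 / q) := by
      rw [ha]
      field_simp
    rw [h1, one_div, Real.log_inv, neg_neg, Real.exp_log hq0]
  have hΔe : Δ = Real.exp A := (Real.exp_log hΔ0).symm
  have hne : n = Real.exp L := (Real.exp_log hn0).symm
  have hK : Δ ^ b = Real.exp (A * b) := by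
    rw [Real.rpow_def_of_pos hΔ0]
  have h1 : (Δ ^ b) ^ e = Real.exp ((e : ℝ) * (A * b)) := by
    rw [hK, ← Real.exp_nat_mul]
  have h2 : Δ ^ w = Real.exp ((w : ℝ) * A) := by
    conv_lhs => rw [hΔe]
    rw [← Real.exp_nat_mul]
  have h3 : n ^ w = Real.exp ((w : ℝ) * L) := by
    conv_lhs => rw [hne]
    rw [← Real.exp_nat_mul]
  have h4 : q ^ e = Real.exp ((e : ℝ) * (-(a * L))) := by
    conv_lhs => rw [hq]
    rw [← Real.exp_nat_mul]
  rw [h1, h2, h3, h4, ← Real.exp_add, ← Real.exp_add, Real.exp_le_exp, Real.exp_le_exp]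
  have hwe' : (w : ℝ) ≤ e := by exact_mod_cast hwe
  have he0 : (0 : ℝ) ≤ e := Nat.cast_nonneg _
  by_cases hbe : (w : ℝ) ≤ b * e
  · left
    nlinarith [mul_le_mul_of_nonneg_left hbe hA0]
  · right
    push Not at hbe
    have hb1 : b ≠ 1 := by
      intro h
      rw [h] at hbe
      linarith
    have hba : b = a := by
      rcases min_choice 1 a with h | h
      · exact absurd h hb1
      · exact h
    rw [hba] at hbe ⊢
    have h5 : 0 ≤ ((w : ℝ) - a * e) * (L - A) :=
      mul_nonneg (by linarith) (by linarith)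
    nlinarith

/-- The bound for connected graphs under the alternative. -/
theorem conn_bound_K {H : SimpleGraph V} {Δ : ℕ} (hΔ1 : 1 ≤ Δ)
    (hΔ : ∀ x, (H.neighborSet x).ncard ≤ Δ) {n : ℕ} {q K : ℝ} (hK1 : 1 ≤ K)
    (hV : Fintype.card V ≤ n)
    (hG : GoodDensity n q H) (hq0 : 0 < q) (hq1 : q ≤ 1)
    (hKalt : ∀ w e : ℕ, w ≤ e → (Δ : ℝ) ^ w ≤ K ^ e ∨ (Δ : ℝ) ^ w ≤ K ^ e * (n : ℝ) ^ w * q ^ e)
    {γ : Type} [Fintype γ] (G : SimpleGraph γ) (hne : Nonempty γ) (hiso : ∀ x, ∃ y, G.Adj x y)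
    (hconn : ∀ D : Finset γ, D.Nonempty → D ≠ univ → ∃ u ∈ D, ∃ w, w ∉ D ∧ G.Adj u w) :
    ((emb G H).card : ℝ) ≤
      (4 * Real.exp 1 * K * q) ^ (eIn G univ).card * (n : ℝ) ^ Fintype.card γ := by
  obtain ⟨a₀⟩ := hne
  set e := (eIn G univ).card with he
  set v := Fintype.card γ with hv
  have hK0 : 0 < K := by linarith
  obtain ⟨π, r, hT⟩ := exists_rooted hconn a₀
  have hve : v ≤ e + 1 := v_le_e_add_one hT
  obtain ⟨y₀, hy₀⟩ := hiso a₀
  have he1 : 1 ≤ e := by
    have : s(a₀, y₀) ∈ eIn G univ := by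
      simp [eIn, hy₀]
    exact Finset.card_pos.2 ⟨_, this⟩
  have hW : G.edgeSet.Nonempty := ⟨s(a₀, y₀), hy₀⟩
  have hE1 : 1 ≤ Real.exp 1 := Real.one_le_exp (by norm_num)
  have hb0 : 0 ≤ (4 * Real.exp 1 * K * q) ^ e * (n : ℝ) ^ v := by positivity
  have hn0 : (0 : ℝ) ≤ (n : ℝ) ^ v := by positivity
  have hqe : (0 : ℝ) ≤ q ^ e := by positivity
  have hKe : 0 ≤ K ^ e := by positivity
  have hconst : K ^ e * q ^ e * (n : ℝ) ^ v ≤ (4 * Real.exp 1 * K * q) ^ e * (n : ℝ) ^ v := by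
    apply mul_le_mul_of_nonneg_right _ hn0
    rw [mul_pow, mul_pow, mul_pow]
    have h41 : (1 : ℝ) ≤ 4 ^ e := one_le_pow₀ (by norm_num)
    have hE2 : (1 : ℝ) ≤ Real.exp 1 ^ e := one_le_pow₀ hE1
    have hprod : (1 : ℝ) ≤ 4 ^ e * Real.exp 1 ^ e := by nlinarith
    have hKq : 0 ≤ K ^ e * q ^ e := by positivity
    nlinarith
  rcases hKalt (v - 1) e (by omega) with halt | halt
  · -- the packing count
    set 𝓕 : Finset (Finset (γ → V)) := (emb G H).powerset.filter
      (fun M => ∀ φ ∈ M, ∀ ψ ∈ M, φ ≠ ψ → ∀ a b, φ a ≠ ψ b) with h𝓕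
    have hF0 : (∅ : Finset (γ → V)) ∈ 𝓕 := by
      simp [h𝓕]
    obtain ⟨M, hM, hmax⟩ := Finset.exists_max_image 𝓕 Finset.card ⟨∅, hF0⟩
    have hMsub : M ⊆ emb G H := Finset.mem_powerset.1 (Finset.mem_filter.1 hM).1
    have hMdis := (Finset.mem_filter.1 hM).2
    have hmeet : ∀ φ ∈ emb G H, ∃ ψ ∈ M, ∃ a b, φ a = ψ b := by
      intro φ hφ
      by_contra hcon
      push Not at hcon
      have hφM : φ ∉ M := fun h => hcon φ h a₀ a₀ rfl
      have hins : insert φ M ∈ 𝓕 := by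
        refine Finset.mem_filter.2 ⟨Finset.mem_powerset.2 (Finset.insert_subset hφ hMsub), ?_⟩
        intro f hf g hg hfg a b
        rcases Finset.mem_insert.1 hf with rfl | hf'
        · rcases Finset.mem_insert.1 hg with rfl | hg'
          · exact absurd rfl hfg
          · exact hcon g hg' a b
        · rcases Finset.mem_insert.1 hg with rfl | hg'
          · exact (hcon f hf' b a).symm
          · exact hMdis f hf' g hg' hfg a b
      have h1 := hmax _ hins
      rw [Finset.card_insert_of_notMem hφM] at h1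
      omega
    have hcover : (emb G H).card ≤ M.card * (v * v * Δ ^ (v - 1)) := by
      have hsub : emb G H ⊆ (M ×ˢ ((univ : Finset γ) ×ˢ (univ : Finset γ))).biUnion
          (fun t => (emb G H).filter (fun φ => φ t.2.1 = t.1 t.2.2)) := by
        intro φ hφ
        obtain ⟨ψ, hψ, a, b, hab⟩ := hmeet φ hφ
        refine Finset.mem_biUnion.2 ⟨(ψ, a, b), by simp [hψ], Finset.mem_filter.2 ⟨hφ, hab⟩⟩
      have h1 := Finset.card_le_card hsub
      have h2 := Finset.card_biUnion_le_card_mul (M ×ˢ ((univ : Finset γ) ×ˢ (univ : Finset γ)))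
        (fun t => (emb G H).filter (fun φ => φ t.2.1 = t.1 t.2.2)) (Δ ^ (v - 1)) ?_
      · rw [Finset.card_product, Finset.card_product, Finset.card_univ] at h2
        calc (emb G H).card ≤ M.card * (v * v) * Δ ^ (v - 1) := h1.trans h2
          _ = M.card * (v * v * Δ ^ (v - 1)) := by ring
      · rintro ⟨ψ, a, b⟩ -
        obtain ⟨π', r', hT'⟩ := exists_rooted hconn a
        exact fiber_card_le hΔ1 hΔ hT' _
    rcases M.eq_empty_or_nonempty with hMe | hMne
    · rw [hMe] at hcover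
      have h0 : (emb G H).card = 0 := by simpa using hcover
      rw [h0, Nat.cast_zero]
      exact hb0
    have hh : 1 ≤ M.card := Finset.card_pos.2 hMne
    have hrare := copies_group_bound (n := n) hG hq0 hq1 G hW (⊥ : Subgroup (Equiv.Perm γ))
      (by
        intro σ hσ a b hab
        rw [Subgroup.mem_bot] at hσ
        rw [hσ]
        exact hab)
      hh (fun i => (M.equivFin.symm i).1)
      (fun i => (mem_emb.1 (hMsub (M.equivFin.symm i).2)).1)
      (fun i a b hab => (mem_emb.1 (hMsub (M.equivFin.symm i).2)).2 a b hab)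
      (by
        intro i j hij a b
        refine hMdis _ (M.equivFin.symm i).2 _ (M.equivFin.symm j).2 ?_ a b
        intro h
        exact hij (M.equivFin.symm.injective (Subtype.ext h)))
    rw [ncard_eq_eIn, ← he, ← hv] at hrare
    have hcardbot : Nat.card (⊥ : Subgroup (Equiv.Perm γ)) = 1 := Subgroup.card_bot
    rw [hcardbot, Nat.cast_one, mul_one] at hrare
    have hcov : ((emb G H).card : ℝ) ≤ (M.card : ℝ) * (v * v * (Δ : ℝ) ^ (v - 1)) := by
      exact_mod_cast hcover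
    have hv1 : ((v : ℝ)) ≤ 2 ^ e := by
      have h3 : e + 1 ≤ 2 ^ e := Nat.lt_two_pow_self
      have h4 : v ≤ 2 ^ e := hve.trans h3
      exact_mod_cast h4
    have hvv : (v : ℝ) * v ≤ 4 ^ e := by
      have h5 : (4 : ℝ) ^ e = 2 ^ e * 2 ^ e := by
        rw [← mul_pow]
        norm_num
      rw [h5]
      have hv0 : (0 : ℝ) ≤ v := Nat.cast_nonneg _
      exact mul_le_mul hv1 hv1 hv0 (by positivity)
    have hEe : Real.exp 1 ≤ Real.exp 1 ^ e := le_self_pow₀ hE1 (by omega)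
    have hmid : 0 ≤ (v : ℝ) * v * (Δ : ℝ) ^ (v - 1) := by positivity
    calc ((emb G H).card : ℝ) ≤ (M.card : ℝ) * (v * v * (Δ : ℝ) ^ (v - 1)) := hcov
      _ ≤ (Real.exp 1 * ((n : ℝ) ^ v * q ^ e)) * (v * v * (Δ : ℝ) ^ (v - 1)) :=
          mul_le_mul_of_nonneg_right hrare hmid
      _ = (Real.exp 1 * (v * v * (Δ : ℝ) ^ (v - 1))) * (q ^ e * (n : ℝ) ^ v) := by ring
      _ ≤ (Real.exp 1 ^ e * (4 ^ e * K ^ e)) * (q ^ e * (n : ℝ) ^ v) := by
          gcongr
      _ = (4 * Real.exp 1 * K * q) ^ e * (n : ℝ) ^ v := by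
          rw [mul_pow, mul_pow, mul_pow]
          ring
  · -- the plain count
    have hcover : (emb G H).card ≤ Fintype.card V * Δ ^ (v - 1) := by
      have hsub : emb G H ⊆ (univ : Finset V).biUnion
          (fun x => (emb G H).filter (fun φ => φ a₀ = x)) := by
        intro φ hφ
        exact Finset.mem_biUnion.2 ⟨φ a₀, mem_univ _, Finset.mem_filter.2 ⟨hφ, rfl⟩⟩
      have h1 := Finset.card_le_card hsub
      have h2 := Finset.card_biUnion_le_card_mul (univ : Finset V)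
        (fun x => (emb G H).filter (fun φ => φ a₀ = x)) (Δ ^ (v - 1))
        (fun x _ => fiber_card_le hΔ1 hΔ hT x)
      rw [Finset.card_univ] at h2
      exact h1.trans h2
    have hcov : ((emb G H).card : ℝ) ≤ (n : ℝ) * (Δ : ℝ) ^ (v - 1) := by
      have h1 : (emb G H).card ≤ n * Δ ^ (v - 1) :=
        hcover.trans (Nat.mul_le_mul_right _ hV)
      exact_mod_cast h1
    have hv1 : 1 ≤ v := Fintype.card_pos_iff.2 ⟨a₀⟩
    have hnv : (n : ℝ) ^ v = (n : ℝ) * (n : ℝ) ^ (v - 1) := by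
      conv_lhs => rw [show v = (v - 1) + 1 by omega]
      rw [pow_succ]
      ring
    have hn0' : (0 : ℝ) ≤ n := Nat.cast_nonneg _
    refine le_trans ?_ hconst
    calc ((emb G H).card : ℝ) ≤ (n : ℝ) * (Δ : ℝ) ^ (v - 1) := hcov
      _ ≤ (n : ℝ) * (K ^ e * (n : ℝ) ^ (v - 1) * q ^ e) :=
          mul_le_mul_of_nonneg_left halt hn0'
      _ = K ^ e * q ^ e * (n : ℝ) ^ v := by
          rw [hnv]
          ring

/-- The bound for all graphs without isolated vertices. -/
theorem embBound_K {H : SimpleGraph V} {Δ : ℕ} (hΔ1 : 1 ≤ Δ)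
    (hΔ : ∀ x, (H.neighborSet x).ncard ≤ Δ) {n : ℕ} {q K : ℝ} (hK1 : 1 ≤ K)
    (hV : Fintype.card V ≤ n)
    (hG : GoodDensity n q H) (hq0 : 0 < q) (hq1 : q ≤ 1)
    (hKalt : ∀ w e : ℕ, w ≤ e → (Δ : ℝ) ^ w ≤ K ^ e ∨ (Δ : ℝ) ^ w ≤ K ^ e * (n : ℝ) ^ w * q ^ e) :
    EmbBound n H (Real.exp 2 * (4 * Real.exp 1 * K) * q) := by
  intro β _ G hiso hvn
  have hK0 : 0 < K := by linarith
  have hBd : 0 ≤ 4 * Real.exp 1 * K * q := by positivity
  have hmain : ((emb G H).card : ℝ) ≤
      (4 * Real.exp 1 * K * q) ^ (eIn G univ).card * (n : ℝ) ^ Fintype.card β := by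
    refine emb_components (H := H) (n := n) hBd ?_ β G hiso
    intro γ _ G' hne hiso' hconn
    exact conn_bound_K hΔ1 hΔ hK1 hV hG hq0 hq1 hKalt G' hne hiso' hconn
  refine hmain.trans ?_
  set e := (eIn G univ).card with he
  set v := Fintype.card β with hv
  have hve : v ≤ 2 * e := (vertices_le_darts hiso).trans darts_card_le
  have hnd := pow_le_exp_descFactorial hvn
  set d : ℝ := (n.descFactorial v : ℝ) with hd
  have hd0 : 0 ≤ d := Nat.cast_nonneg _
  have hE1 : 1 ≤ Real.exp 1 := Real.one_le_exp (by norm_num)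
  have hpow : Real.exp 1 ^ v ≤ Real.exp 2 ^ e := by
    have h1 : Real.exp 2 ^ e = Real.exp 1 ^ (2 * e) := by
      have h0 : Real.exp 2 = Real.exp 1 ^ 2 := by
        rw [← Real.exp_nat_mul]
        norm_num
      rw [h0, ← pow_mul]
    rw [h1]
    exact pow_le_pow_right₀ hE1 hve
  have hb0 : 0 ≤ (4 * Real.exp 1 * K * q) ^ e := by positivity
  calc (4 * Real.exp 1 * K * q) ^ e * (n : ℝ) ^ v
      ≤ (4 * Real.exp 1 * K * q) ^ e * (Real.exp 1 ^ v * d) :=
        mul_le_mul_of_nonneg_left hnd hb0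
    _ ≤ (4 * Real.exp 1 * K * q) ^ e * (Real.exp 2 ^ e * d) := by
        gcongr
    _ = (Real.exp 2 * (4 * Real.exp 1 * K) * q) ^ e * d := by
        have : Real.exp 2 * (4 * Real.exp 1 * K) * q = (4 * Real.exp 1 * K * q) * Real.exp 2 := by ring
        rw [this, mul_pow]
        ring

/-- The thresholds: for `H` of maximum degree at most `Δ`, with `a = log (1 / p_E) / log n`,
`tilde p_E ≤ C Δ^min(1,a) p_E` and `p_c ≤ C Δ^min(1,a) p_E log n`. -/
theorem deg_pow_thresholds :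
    ∃ C : ℝ, 0 < C ∧ ∀ (n : ℕ) (V : Type) [Fintype V] (H : SimpleGraph V), 2 ≤ n →
      Fintype.card V ≤ n → H ≠ ⊥ → ∀ Δ : ℕ, (∀ x, (H.neighborSet x).ncard ≤ Δ) →
      pTilde n H ≤ C * (Δ : ℝ) ^ (min 1 (Real.log (1 / pE n H) / Real.log n)) * pE n H ∧
      pc n H ≤ C * (Δ : ℝ) ^ (min 1 (Real.log (1 / pE n H) / Real.log n)) * pE n H * Real.log n := by
  refine ⟨8192 * Real.exp 3 + 16, by positivity, ?_⟩
  intro n V _ H hn hV hH Δ hΔ
  have hexa : ∃ a b, H.Adj a b := by
    by_contra hcon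
    push Not at hcon
    apply hH
    ext a b
    simp [hcon a b]
  have hncard : ∀ x, (H.neighborSet x).ncard ≤ n := by
    intro x
    have h1 : (H.neighborSet x).ncard ≤ Nat.card V := Set.ncard_le_card _
    rw [Nat.card_eq_fintype_card] at h1
    exact h1.trans hV
  have hΔ1 : 1 ≤ Δ := by
    obtain ⟨a, b, hab⟩ := hexa
    have h0 : (H.neighborSet a).Nonempty := ⟨b, hab⟩
    have h1 : 0 < (H.neighborSet a).ncard := (Set.ncard_pos (Set.toFinite _)).2 h0
    exact h1.trans_le (hΔ a)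
  have hn1 : 1 ≤ n := by omega
  set Δ' := min Δ n with hΔ'
  have hΔ'1 : 1 ≤ Δ' := le_min hΔ1 hn1
  have hdeg' : ∀ x, (H.neighborSet x).ncard ≤ Δ' := fun x => le_min (hΔ x) (hncard x)
  have hΔ0 : (1 : ℝ) ≤ Δ' := by exact_mod_cast hΔ'1
  have hΔ'n : (Δ' : ℝ) ≤ n := by exact_mod_cast min_le_right Δ n
  have hΔ'Δ : (Δ' : ℝ) ≤ Δ := by exact_mod_cast min_le_left Δ n
  have hn2 : (2 : ℝ) ≤ n := by exact_mod_cast hn
  have hL : Real.log 2 ≤ Real.log n := Real.log_le_log (by norm_num) hn2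
  have hlog2 : (0.6931471803 : ℝ) < Real.log 2 := Real.log_two_gt_d9
  have hL0 : 0 < Real.log n := by linarith
  have hP0 : 0 < pE n H := pE_pos hn hV hH
  have hP1 : pE n H ≤ 1 := pE_le_one hV
  set P := pE n H with hP
  set L := Real.log n with hLdef
  set a := Real.log (1 / P) / L with ha
  have ha0 : 0 ≤ a := by
    have : 0 ≤ Real.log (1 / P) := Real.log_nonneg (by
      rw [le_div_iff₀ hP0]
      linarith)
    exact div_nonneg this hL0.le
  set b := min 1 a with hb
  have hb0 : 0 ≤ b := le_min (by norm_num) ha0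
  have hΔreal : (1 : ℝ) ≤ Δ := hΔ0.trans hΔ'Δ
  have hKb : (1 : ℝ) ≤ (Δ : ℝ) ^ b := Real.one_le_rpow hΔreal hb0
  set Kb := (Δ : ℝ) ^ b with hKbdef
  have hexp3 : Real.exp 3 = Real.exp 2 * Real.exp 1 := by
    rw [← Real.exp_add]
    norm_num
  have he30 : 0 < Real.exp 3 := Real.exp_pos _
  by_cases hq3 : 4 * P ≤ 1
  · have hG : GoodDensity n (4 * P) H := good_of_pE hn hV hH le_rfl
    have hq0 : 0 < 4 * P := by positivity
    set K := (Δ' : ℝ) ^ (min 1 (Real.log (1 / (4 * P)) / L)) with hK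
    have hb'0 : 0 ≤ min 1 (Real.log (1 / (4 * P)) / L) := by
      refine le_min (by norm_num) (div_nonneg (Real.log_nonneg ?_) hL0.le)
      rw [le_div_iff₀ hq0]
      linarith
    have hK1 : 1 ≤ K := Real.one_le_rpow hΔ0 hb'0
    have hKKb : K ≤ Kb := by
      have hmono : min 1 (Real.log (1 / (4 * P)) / L) ≤ b := by
        apply min_le_min le_rfl
        apply div_le_div_of_nonneg_right _ hL0.le
        apply Real.log_le_log (by positivity)
        apply one_div_le_one_div_of_le hP0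
        linarith
      calc K ≤ (Δ : ℝ) ^ (min 1 (Real.log (1 / (4 * P)) / L)) :=
            Real.rpow_le_rpow (by linarith) hΔ'Δ hb'0
        _ ≤ Kb := Real.rpow_le_rpow_of_exponent_le hΔreal hmono
    have hEmb := embBound_K hΔ'1 hdeg' hK1 hV hG hq0 hq3
      (fun w e hwe => num_alt hΔ0 hΔ'n hq0 w e hwe)
    have hΘ : Real.exp 2 * (4 * Real.exp 1 * K) * (4 * P) = 16 * Real.exp 3 * K * P := by
      rw [hexp3]
      ring
    rw [hΘ] at hEmb
    have hK0 : 0 < K := by linarith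
    have hΘ0 : 0 < 16 * Real.exp 3 * K * P := by positivity
    have hT := pTilde_le_of_embBound hV hΘ0 hEmb
    have hC := pc_le_of_embBound hn hV hH hΘ0 hEmb
    have hΘle : 16 * Real.exp 3 * K * P ≤ 16 * Real.exp 3 * Kb * P := by
      gcongr
    have hKbP : 0 ≤ Kb * P := by positivity
    have h5 : 0 ≤ Real.exp 3 * (Kb * P) := by positivity
    constructor
    · refine hT.trans (hΘle.trans ?_)
      nlinarith
    · rw [← hLdef] at hC
      refine hC.trans ?_
      have h8 : 512 * L * (16 * Real.exp 3 * K * P) ≤ 512 * L * (16 * Real.exp 3 * Kb * P) :=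
        mul_le_mul_of_nonneg_left hΘle (by positivity)
      refine h8.trans ?_
      have h6 : 0 ≤ Real.exp 3 * (Kb * P) * L := by positivity
      have h7 : 0 ≤ Kb * P * L := by positivity
      nlinarith
  · have hP4 : 1 < 4 * P := not_le.1 hq3
    have h1 : pTilde n H ≤ 1 := pTilde_le_one hV
    have h2 : pc n H ≤ 1 := pc_le_one hV
    have hDP : 1 / 4 ≤ Kb * P := by nlinarith
    have hC : (16 : ℝ) ≤ 8192 * Real.exp 3 + 16 := by linarith
    have hprod : (1 : ℝ) ≤ (8192 * Real.exp 3 + 16) * Kb * P := by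
      calc (1 : ℝ) ≤ 16 * (1 / 4) := by norm_num
        _ ≤ (8192 * Real.exp 3 + 16) * (Kb * P) :=
            mul_le_mul hC hDP (by norm_num) (by linarith)
        _ = _ := by ring
    constructor
    · linarith
    · have h8 : 1 ≤ (8192 * Real.exp 3 + 16) * Kb * P * L := by
        have h9 : (1 / 4 : ℝ) * (0.6931471803 : ℝ) ≤ Kb * P * L := by
          have : (0.6931471803 : ℝ) ≤ L := by linarith
          exact mul_le_mul hDP this (by norm_num) (by positivity)
        have h10 : (16 : ℝ) * ((1 / 4 : ℝ) * (0.6931471803 : ℝ)) ≤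
            (8192 * Real.exp 3 + 16) * (Kb * P * L) :=
          mul_le_mul hC h9 (by norm_num) (by linarith)
        have h11 : (8192 * Real.exp 3 + 16) * Kb * P * L =
            (8192 * Real.exp 3 + 16) * (Kb * P * L) := by ring
        rw [h11]
        refine le_trans ?_ h10
        norm_num
      linarith

end Vale.Agent.Lib.P064D
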